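import Crest.Agent.Helper5.S0066.FarDefs

/-!
# S0066, package F0 (part 1): the 66 lines of a copy and the matching lemma

`lines66 r g i` : three given lines `r 0, r 1, r 2`, then the crown lines `crown a i`
(`a = 0..58`), then the thresholds `thr g θ i` (`θ = 0..3`) of ONE group `g`, all marker lines with
copy number `i`.

* `copy_of_frame`: if the marker × marker cells sampled by `(i, i')` are clean, the three rows
  (columns) have the right values against the sampled crown and threshold columns (rows), and the
  `3 × 3` block is `111 / 101 / 111`, then `B` agrees with `Hpat` on `lines66 × lines66`.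
* `lines66_strictMono_of`: `lines66 r g i` is strictly monotone as soon as `r` is, `r 2` lies before
  the crown lines, and the crown / threshold lines are ordered as in the layout.
-/

set_option autoImplicit false

namespace Crest.Agent.Helper60.S0066

open Crest.Agent.Helper5.S0066 Crest.Agent.Helper5.S0066.Line

variable {h : ℕ}

/-- The 66 lines of a candidate copy. -/
def lines66 (r : Fin 3 → Line h) (g : Grp h) (i : Fin (2 ^ h)) (a : Fin 66) : Line h :=
  if h3 : a.val < 3 then r ⟨a.val, h3⟩
  else if h62 : a.val < 62 then crown ⟨a.val - 3, by omega⟩ i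
  else thr g ⟨a.val - 62, by omega⟩ i

theorem lines66_pay (r : Fin 3 → Line h) (g : Grp h) (i : Fin (2 ^ h)) (a : Fin 66)
    (h3 : a.val < 3) : lines66 r g i a = r ⟨a.val, h3⟩ := by
  unfold lines66
  rw [dif_pos h3]

theorem lines66_crown (r : Fin 3 → Line h) (g : Grp h) (i : Fin (2 ^ h)) (a : Fin 66)
    (h3 : 3 ≤ a.val) (h62 : a.val < 62) :
    lines66 r g i a = crown ⟨a.val - 3, by omega⟩ i := by
  unfold lines66
  rw [dif_neg (by omega), dif_pos h62]

theorem lines66_thr (r : Fin 3 → Line h) (g : Grp h) (i : Fin (2 ^ h)) (a : Fin 66)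
    (h62 : 62 ≤ a.val) :
    lines66 r g i a = thr g ⟨a.val - 62, by omega⟩ i := by
  unfold lines66
  rw [dif_neg (by omega), dif_neg (by omega)]

/-- **Matching lemma.** -/
theorem copy_of_frame (B : Line h → Line h → Bool) (i i' : Fin (2 ^ h)) (hmm : MMclean B i i')
    (g : Grp h) (r c : Fin 3 → Line h)
    (hrc : ∀ k l : Fin 3, B (r k) (c l) = !(decide (k.val = 1) && decide (l.val = 1)))
    (hr_crown : ∀ (k : Fin 3) (a : Fin 59), B (r k) (crown a i') = false)
    (hr_thr : ∀ (k : Fin 3) (θ : Fin 4), B (r k) (thr g θ i') = code k.val θ.val)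
    (hc_crown : ∀ (l : Fin 3) (a : Fin 59), B (crown a i) (c l) = false)
    (hc_thr : ∀ (l : Fin 3) (θ : Fin 4), B (thr g θ i) (c l) = code l.val θ.val)
    (a b : Fin 66) : B (lines66 r g i a) (lines66 c g i' b) = Hpat a b := by
  have mC : ∀ a : Fin 59, IsMark i (crown a i : Line h) := fun a => Or.inr (Or.inl ⟨a, rfl⟩)
  have mC' : ∀ a : Fin 59, IsMark i' (crown a i' : Line h) := fun a => Or.inr (Or.inl ⟨a, rfl⟩)
  have mT : ∀ θ : Fin 4, IsMark i (thr g θ i : Line h) := fun θ => Or.inr (Or.inr ⟨g, θ, rfl⟩)
  have mT' : ∀ θ : Fin 4, IsMark i' (thr g θ i' : Line h) := fun θ => Or.inr (Or.inr ⟨g, θ, rfl⟩)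
  by_cases ha3 : a.val < 3
  · rw [lines66_pay r g i a ha3]
    by_cases hb3 : b.val < 3
    · rw [lines66_pay c g i' b hb3, hrc]
      simp only [Hpat, ha3, hb3, if_true]
    · by_cases hb62 : b.val < 62
      · rw [lines66_crown c g i' b (by omega) hb62, hr_crown]
        simp only [Hpat, ha3, hb3, hb62, if_true, if_false]
      · rw [lines66_thr c g i' b (by omega), hr_thr]
        simp only [Hpat, ha3, hb3, hb62, if_true, if_false]
  · by_cases ha62 : a.val < 62
    · rw [lines66_crown r g i a (by omega) ha62]
      by_cases hb3 : b.val < 3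
      · rw [lines66_pay c g i' b hb3, hc_crown]
        simp only [Hpat, ha3, ha62, hb3, if_true, if_false]
      · by_cases hb62 : b.val < 62
        · rw [lines66_crown c g i' b (by omega) hb62, hmm _ _ (mC _) (mC' _)]
          simp only [Hpat, ha3, ha62, hb3, hb62, if_true, if_false, M]
          rw [decide_eq_decide]
          constructor
          · intro hne heq
            apply hne
            apply Fin.ext
            simp only
            omega
          · intro hne heq
            apply hne
            have := congrArg Fin.val heq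
            simp only at this
            omega
        · rw [lines66_thr c g i' b (by omega), hmm _ _ (mC _) (mT' _)]
          simp only [Hpat, ha3, ha62, hb3, hb62, if_true, if_false, M]
    · rw [lines66_thr r g i a (by omega)]
      by_cases hb3 : b.val < 3
      · rw [lines66_pay c g i' b hb3, hc_thr]
        simp only [Hpat, ha3, ha62, hb3, if_true, if_false]
      · by_cases hb62 : b.val < 62
        · rw [lines66_crown c g i' b (by omega) hb62, hmm _ _ (mT _) (mC' _)]
          simp only [Hpat, ha3, ha62, hb3, hb62, if_true, if_false, M]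
        · rw [lines66_thr c g i' b (by omega), hmm _ _ (mT _) (mT' _)]
          simp only [Hpat, ha3, ha62, hb3, hb62, if_false, M, decide_true]

/-- Strict monotonicity of `lines66`, from the layout facts. -/
theorem lines66_strictMono_of (r : Fin 3 → Line h) (g : Grp h) (i : Fin (2 ^ h))
    (hr : StrictMono r) (h2 : r 2 < crown 0 i)
    (hcc : ∀ {a b : Fin 59}, a < b → (crown a i : Line h) < crown b i)
    (hct : ∀ (a : Fin 59) (θ : Fin 4), (crown a i : Line h) < thr g θ i)
    (htt : ∀ {θ θ' : Fin 4}, θ < θ' → (thr g θ i : Line h) < thr g θ' i) :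
    StrictMono (lines66 r g i) := by
  have hr2 : ∀ k : Fin 3, r k ≤ r 2 := by
    intro k
    apply hr.monotone
    rw [Fin.le_def]
    have := k.isLt
    show k.val ≤ 2
    omega
  have h0c : ∀ b : Fin 59, (crown 0 i : Line h) ≤ crown b i := by
    intro b
    by_cases hb : b = 0
    · rw [hb]
    · exact (hcc (Fin.pos_iff_ne_zero.mpr hb)).le
  intro a b hab
  have hab' : a.val < b.val := hab
  by_cases ha3 : a.val < 3
  · rw [lines66_pay r g i a ha3]
    by_cases hb3 : b.val < 3
    · rw [lines66_pay r g i b hb3]
      exact hr (by rw [Fin.lt_def]; exact hab')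
    · by_cases hb62 : b.val < 62
      · rw [lines66_crown r g i b (by omega) hb62]
        exact lt_of_le_of_lt (hr2 _) (lt_of_lt_of_le h2 (h0c _))
      · rw [lines66_thr r g i b (by omega)]
        exact lt_of_le_of_lt (hr2 _) (lt_trans h2 (hct _ _))
  · by_cases ha62 : a.val < 62
    · rw [lines66_crown r g i a (by omega) ha62]
      by_cases hb62 : b.val < 62
      · rw [lines66_crown r g i b (by omega) hb62]
        apply hcc
        rw [Fin.lt_def]
        simp only
        omega
      · rw [lines66_thr r g i b (by omega)]
        exact hct _ _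
    · rw [lines66_thr r g i a (by omega), lines66_thr r g i b (by omega)]
      apply htt
      rw [Fin.lt_def]
      simp only
      omega

end Crest.Agent.Helper60.S0066
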