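import Crest.Agent.Helper5.S0066.FarDefs
import Crest.Agent.Helper60.S0066.Frame

/-!
# S0066, package F0 (part 2): the two rules

* `rule_bot` : Spec-verbatim (`Crest.Agent.Helper5.S0066.Spec.rule_bot`).
* `rule_lvl_of_between` : `Spec.rule_lvl` with the layout lemma L2 (`between_of`) as a hypothesis
  `Between h`; the Spec-verbatim `rule_lvl` is in `Crest.Agent.Helper60.S0066.F0`.
-/

set_option autoImplicit false

namespace Crest.Agent.Helper60.S0066

open Crest.Agent.Helper5.S0066 Crest.Agent.Helper5.S0066.Line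

variable {h : ℕ}

/-! ### region order facts of the layout (immediate from `Line.lt_iff`) -/

theorem lay_Y_lt_Z (i i' : Fin (2 ^ h)) : (Y i : Line h) < Z i' := by
  rw [Line.lt_iff]
  exact Or.inl (by simp [k1])

theorem lay_Z_lt_tree (i : Fin (2 ^ h)) {l : Line h} (hl : l.isTree = true) : Z i < l := by
  rw [Line.lt_iff]
  cases l with
  | leaf x => exact Or.inl (by simp [k1])
  | core j k y => exact Or.inl (by simp [k1])
  | _ => simp [isTree] at hl

theorem lay_tree_lt_crown {l : Line h} (hl : l.isTree = true) (a : Fin 59) (i : Fin (2 ^ h)) :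
    l < crown a i := by
  rw [Line.lt_iff]
  cases l with
  | leaf x => exact Or.inl (by simp [k1])
  | core j k y => exact Or.inl (by simp [k1])
  | _ => simp [isTree] at hl

theorem lay_crown_lt_crown {a b : Fin 59} (hab : a < b) (i i' : Fin (2 ^ h)) :
    (crown a i : Line h) < crown b i' := by
  rw [Line.lt_iff]
  exact Or.inr ⟨rfl, Or.inl hab⟩

theorem lay_crown_lt_thr (a : Fin 59) (i : Fin (2 ^ h)) (g : Grp h) (θ : Fin 4)
    (i' : Fin (2 ^ h)) : crown a i < thr g θ i' := by
  rw [Line.lt_iff]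
  exact Or.inl (by simp [k1])

theorem lay_thr_lt_thr (g : Grp h) {θ θ' : Fin 4} (hθ : θ < θ') (i i' : Fin (2 ^ h)) :
    thr g θ i < thr g θ' i' := by
  rw [Line.lt_iff]
  exact Or.inr ⟨rfl, Or.inr ⟨rfl, Or.inl hθ⟩⟩

/-- The statement of the layout lemma **L2** (`Spec.between_of`), used as a hypothesis. -/
def Between (h : ℕ) : Prop :=
  ∀ {j : Fin h} {s : Bool} {y y' : Fin (2 ^ h)} {l : Line h},
    y.val / 2 ^ (j.val + 1) = y'.val / 2 ^ (j.val + 1) → l.isTree = true → l.lvl ≤ j.val →
    l.pos / 2 ^ j.val = 2 * (y.val / 2 ^ (j.val + 1)) + s.toNat →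
    core j (kLo s) y < l ∧ l < core j (kHi s) y'

/-! ### threshold codes -/

theorem code_zero (n : ℕ) : code 0 n = decide (n ≤ 1) := rfl
theorem code_one (n : ℕ) : code 1 n = decide (n = 0) := rfl
theorem code_two (n : ℕ) : code 2 n = decide (n ≤ 2) := rfl

theorem thBot_code0 (θ : Fin 4) : decide (thBot θ ≤ -1) = code 0 θ.val := by
  rw [code_zero, decide_eq_decide]
  unfold thBot
  have := θ.isLt
  split_ifs <;> omega

theorem thBot_code2 (θ : Fin 4) : decide (thBot θ ≤ 0) = code 2 θ.val := by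
  rw [code_two, decide_eq_decide]
  unfold thBot
  have := θ.isLt
  split_ifs <;> omega

/-- lower bracket (rank `3 j + 1 + s`) against `thT` -/
theorem thT_code0 (j : ℕ) (s : Bool) (θ : Fin 4) :
    decide (thT j s θ ≤ 3 * (j : ℤ) + 1 + (s.toNat : ℤ)) = code 0 θ.val := by
  rw [code_zero, decide_eq_decide]
  unfold thT
  have := θ.isLt
  have hs : (0 : ℤ) ≤ (s.toNat : ℤ) := by positivity
  split_ifs <;> omega

theorem thA_code0 (j : ℕ) (s : Bool) (θ : Fin 4) :
    decide (thA j s θ ≤ 3 * (j : ℤ) + 1 + (s.toNat : ℤ)) = code 0 θ.val := by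
  rw [code_zero, decide_eq_decide]
  unfold thA
  have := θ.isLt
  have hs : (0 : ℤ) ≤ (s.toNat : ℤ) := by positivity
  split_ifs <;> omega

/-- upper bracket (rank `3 j + 1 + s + 1`) against `thT` -/
theorem thT_code2 (j : ℕ) (s : Bool) (θ : Fin 4) :
    decide (thT j s θ ≤ 3 * (j : ℤ) + 1 + ((s.toNat + 1 : ℕ) : ℤ)) = code 2 θ.val := by
  rw [code_two, decide_eq_decide]
  unfold thT
  have := θ.isLt
  have hs : (0 : ℤ) ≤ (s.toNat : ℤ) := by positivity
  push_cast
  split_ifs <;> omega

theorem thA_code2 (j : ℕ) (s : Bool) (θ : Fin 4) :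
    decide (thA j s θ ≤ 3 * (j : ℤ) + 1 + ((s.toNat + 1 : ℕ) : ℤ)) = code 2 θ.val := by
  rw [code_two, decide_eq_decide]
  unfold thA
  have := θ.isLt
  have hs : (0 : ℤ) ≤ (s.toNat : ℤ) := by positivity
  push_cast
  split_ifs <;> omega

/-- a line strictly below the level (`0 ≤ ρ ≤ 3 j`) against `thA` -/
theorem thA_code1 (j : ℕ) (s : Bool) (θ : Fin 4) (ρ : ℤ) (h0 : 0 ≤ ρ) (h1 : ρ ≤ 3 * (j : ℤ)) :
    decide (thA j s θ ≤ ρ) = code 1 θ.val := by
  rw [code_one, decide_eq_decide]
  unfold thA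
  have := θ.isLt
  have hs : (0 : ℤ) ≤ (s.toNat : ℤ) := by positivity
  split_ifs <;> omega

/-- a top-layer line of the child against `thT` -/
theorem thT_code1 (j : ℕ) (s : Bool) (θ : Fin 4) (ρ : ℤ)
    (h0 : (if j = 0 then (0 : ℤ) else 3 * (j : ℤ) - 2) ≤ ρ) (h1 : ρ ≤ 3 * (j : ℤ)) :
    decide (thT j s θ ≤ ρ) = code 1 θ.val := by
  rw [code_one, decide_eq_decide]
  unfold thT
  have := θ.isLt
  have hs : (0 : ℤ) ≤ (s.toNat : ℤ) := by positivity
  split_ifs at h0 ⊢ <;> omega

/-! ### ranks of tree lines -/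

theorem rank_tree_bounds {p : Line h} (hp : p.isTree = true) :
    0 ≤ p.rank ∧ p.rank ≤ 3 * (p.lvl : ℤ) := by
  cases p with
  | leaf x => simp [rank, lvl]
  | core j k y =>
    simp only [rank, lvl]
    have := k.isLt
    push_cast
    constructor <;> omega
  | _ => simp [isTree] at hp

theorem rank_tree_low {p : Line h} (hp : p.isTree = true) :
    (if p.lvl = 0 then (0 : ℤ) else 3 * (p.lvl : ℤ) - 2) ≤ p.rank := by
  cases p with
  | leaf x => simp [rank, lvl]
  | core j k y =>
    have hl : (core j k y : Line h).lvl = j.val + 1 := rfl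
    have hr : (core j k y : Line h).rank = 3 * (j.val : ℤ) + 1 + (k.val : ℤ) := rfl
    rw [hl, hr, if_neg (by omega)]
    push_cast
    omega
  | _ => simp [isTree] at hp

/-! ### small helpers -/

theorem strictMono_vec3 {α : Type*} [Preorder α] (a b c : α) (hab : a < b) (hbc : b < c) :
    StrictMono ![a, b, c] := by
  rw [Fin.strictMono_iff_lt_succ]
  intro k
  fin_cases k
  · exact hab
  · exact hbc

theorem M_pay_rank_thr {p : Line h} (hp : p.isPay = true) (g : Grp h) (θ : Fin 4)
    (i : Fin (2 ^ h)) : M p (.thr g θ i) = decide (thF g θ ≤ p.rank) := M_pay_thr hp g θ i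

/-! ### the bottom rule -/

/-- **F0.** Bottom rule. -/
theorem rule_bot (B : Line h → Line h → Bool) (hfree : HFree B) (i i' : Fin (2 ^ h))
    (hmm : MMclean B i i') {u u' x : Fin (2 ^ h)}
    (hu : GoodRow B i' (Y u)) (hu' : GoodCol B i (Y u'))
    (hx : GoodRow B i' (leaf x)) (hx' : GoodCol B i (leaf x))
    (hxx : B (leaf x) (leaf x) = true) :
    B (Y u) (Y u') = false ∨ B (Y u) (leaf x) = false ∨ B (leaf x) (Y u') = false := by
  by_contra hcon
  rw [not_or, not_or] at hcon
  obtain ⟨h00, h02, h20⟩ := hcon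
  rw [Bool.not_eq_false] at h00 h02 h20
  have mZ : IsMark i (Z i : Line h) := Or.inl rfl
  have mZ' : IsMark i' (Z i' : Line h) := Or.inl rfl
  have mC : ∀ a : Fin 59, IsMark i (crown a i : Line h) := fun a => Or.inr (Or.inl ⟨a, rfl⟩)
  have mC' : ∀ a : Fin 59, IsMark i' (crown a i' : Line h) := fun a => Or.inr (Or.inl ⟨a, rfl⟩)
  have mT : ∀ θ : Fin 4, IsMark i (thr Grp.bot θ i : Line h) :=
    fun θ => Or.inr (Or.inr ⟨Grp.bot, θ, rfl⟩)
  have mT' : ∀ θ : Fin 4, IsMark i' (thr Grp.bot θ i' : Line h) :=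
    fun θ => Or.inr (Or.inr ⟨Grp.bot, θ, rfl⟩)
  have e01 : B (Y u) (Z i') = true := by rw [hu.2 _ mZ']; rfl
  have e10 : B (Z i) (Y u') = true := by rw [hu'.2 _ mZ]; rfl
  have e11 : B (Z i) (Z i') = false := by rw [hmm _ _ mZ mZ']; rfl
  have e12 : B (Z i) (leaf x) = true := by rw [hx'.2 _ mZ]; rfl
  have e21 : B (leaf x) (Z i') = true := by rw [hx.2 _ mZ']; rfl
  let r : Fin 3 → Line h := ![Y u, Z i, leaf x]
  let c : Fin 3 → Line h := ![Y u', Z i', leaf x]
  have hrS : StrictMono r :=
    strictMono_vec3 _ _ _ (lay_Y_lt_Z u i) (lay_Z_lt_tree i (l := leaf x) rfl)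
  have hcS : StrictMono c :=
    strictMono_vec3 _ _ _ (lay_Y_lt_Z u' i') (lay_Z_lt_tree i' (l := leaf x) rfl)
  have hr2 : r 2 < crown 0 i := lay_tree_lt_crown (l := leaf x) rfl 0 i
  have hc2 : c 2 < crown 0 i' := lay_tree_lt_crown (l := leaf x) rfl 0 i'
  apply hfree (lines66 r Grp.bot i) (lines66 c Grp.bot i')
    (lines66_strictMono_of r Grp.bot i hrS hr2 (fun hab => lay_crown_lt_crown hab i i)
      (fun a θ => lay_crown_lt_thr a i Grp.bot θ i) (fun hθ => lay_thr_lt_thr Grp.bot hθ i i))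
    (lines66_strictMono_of c Grp.bot i' hcS hc2 (fun hab => lay_crown_lt_crown hab i' i')
      (fun a θ => lay_crown_lt_thr a i' Grp.bot θ i') (fun hθ => lay_thr_lt_thr Grp.bot hθ i' i'))
  apply copy_of_frame B i i' hmm Grp.bot r c
  · -- the 3 × 3 block
    intro k l
    fin_cases k <;> fin_cases l
    · exact h00
    · exact e01
    · exact h02
    · exact e10
    · exact e11
    · exact e12
    · exact h20
    · exact e21
    · exact hxx
  · -- rows against crown columns
    intro k a
    fin_cases k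
    · show B (Y u) (crown a i') = false
      rw [hu.2 _ (mC' a)]; rfl
    · show B (Z i) (crown a i') = false
      rw [hmm _ _ mZ (mC' a)]; rfl
    · show B (leaf x) (crown a i') = false
      rw [hx.2 _ (mC' a)]; rfl
  · -- rows against threshold columns
    intro k θ
    fin_cases k
    · show B (Y u) (thr Grp.bot θ i') = code 0 θ.val
      rw [hu.2 _ (mT' θ)]
      exact thBot_code0 θ
    · show B (Z i) (thr Grp.bot θ i') = code 1 θ.val
      rw [hmm _ _ mZ (mT' θ), code_one]
      show decide ((Grp.bot : Grp h) = Grp.bot ∧ θ.val = 0) = decide (θ.val = 0)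
      rw [decide_eq_decide]
      exact ⟨fun hh => hh.2, fun hh => ⟨rfl, hh⟩⟩
    · show B (leaf x) (thr Grp.bot θ i') = code 2 θ.val
      rw [hx.2 _ (mT' θ)]
      exact thBot_code2 θ
  · -- crown rows against columns
    intro l a
    fin_cases l
    · show B (crown a i) (Y u') = false
      rw [hu'.2 _ (mC a)]; rfl
    · show B (crown a i) (Z i') = false
      rw [hmm _ _ (mC a) mZ']; rfl
    · show B (crown a i) (leaf x) = false
      rw [hx'.2 _ (mC a)]; rfl
  · -- threshold rows against columns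
    intro l θ
    fin_cases l
    · show B (thr Grp.bot θ i) (Y u') = code 0 θ.val
      rw [hu'.2 _ (mT θ)]
      exact thBot_code0 θ
    · show B (thr Grp.bot θ i) (Z i') = code 1 θ.val
      rw [hmm _ _ (mT θ) mZ', code_one]
      show decide ((Grp.bot : Grp h) = Grp.bot ∧ θ.val = 0) = decide (θ.val = 0)
      rw [decide_eq_decide]
      exact ⟨fun hh => hh.2, fun hh => ⟨rfl, hh⟩⟩
    · show B (thr Grp.bot θ i) (leaf x) = code 2 θ.val
      rw [hx'.2 _ (mT θ)]
      exact thBot_code2 θ

/-! ### the level rule -/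

theorem rank_core (j : Fin h) (k : Fin 3) (y : Fin (2 ^ h)) :
    (core j k y : Line h).rank = 3 * (j.val : ℤ) + 1 + (k.val : ℤ) := rfl

/-- the lower bracket row/column against the thresholds of the group -/
theorem lo_thF (anyT : Bool) (j : Fin h) (s : Bool) (θ : Fin 4) (y : Fin (2 ^ h)) :
    decide (thF (Grp.lvl anyT j s) θ ≤ (core j (kLo s) y : Line h).rank) = code 0 θ.val := by
  rw [rank_core, kLo_val]
  cases anyT
  · exact thT_code0 j.val s θ
  · exact thA_code0 j.val s θ

theorem lo_thG (anyT : Bool) (j : Fin h) (s : Bool) (θ : Fin 4) (y : Fin (2 ^ h)) :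
    decide (thG (Grp.lvl anyT j s) θ ≤ (core j (kLo s) y : Line h).rank) = code 0 θ.val := by
  rw [rank_core, kLo_val]
  cases anyT
  · exact thA_code0 j.val s θ
  · exact thT_code0 j.val s θ

theorem hi_thF (anyT : Bool) (j : Fin h) (s : Bool) (θ : Fin 4) (y : Fin (2 ^ h)) :
    decide (thF (Grp.lvl anyT j s) θ ≤ (core j (kHi s) y : Line h).rank) = code 2 θ.val := by
  rw [rank_core, kHi_val]
  cases anyT
  · exact thT_code2 j.val s θ
  · exact thA_code2 j.val s θ

theorem hi_thG (anyT : Bool) (j : Fin h) (s : Bool) (θ : Fin 4) (y : Fin (2 ^ h)) :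
    decide (thG (Grp.lvl anyT j s) θ ≤ (core j (kHi s) y : Line h).rank) = code 2 θ.val := by
  rw [rank_core, kHi_val]
  cases anyT
  · exact thA_code2 j.val s θ
  · exact thT_code2 j.val s θ

/-- a tree line of level `≤ j` (of level exactly `j` when it must be top-layer) has code `1` -/
theorem mid_thF (anyT : Bool) (j : Fin h) (s : Bool) (θ : Fin 4) {p : Line h}
    (hp : p.isTree = true) (hlvl : p.lvl ≤ j.val) (htop : anyT = false → p.lvl = j.val) :
    decide (thF (Grp.lvl anyT j s) θ ≤ p.rank) = code 1 θ.val := by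
  obtain ⟨h0, h1⟩ := rank_tree_bounds hp
  have h1' : p.rank ≤ 3 * (j.val : ℤ) := by
    have : (p.lvl : ℤ) ≤ (j.val : ℤ) := by exact_mod_cast hlvl
    omega
  cases anyT
  · have hl := rank_tree_low hp
    rw [htop rfl] at hl
    exact thT_code1 j.val s θ p.rank hl h1'
  · exact thA_code1 j.val s θ p.rank h0 h1'

theorem mid_thG (anyT : Bool) (j : Fin h) (s : Bool) (θ : Fin 4) {q : Line h}
    (hq : q.isTree = true) (hlvl : q.lvl ≤ j.val) (htop : anyT = true → q.lvl = j.val) :
    decide (thG (Grp.lvl anyT j s) θ ≤ q.rank) = code 1 θ.val := by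
  obtain ⟨h0, h1⟩ := rank_tree_bounds hq
  have h1' : q.rank ≤ 3 * (j.val : ℤ) := by
    have : (q.lvl : ℤ) ≤ (j.val : ℤ) := by exact_mod_cast hlvl
    omega
  cases anyT
  · exact thA_code1 j.val s θ q.rank h0 h1'
  · have hl := rank_tree_low hq
    rw [htop rfl] at hl
    exact thT_code1 j.val s θ q.rank hl h1'

/-- **F0.** Level rule at the class `c` of level `j + 1`, child `2 c + s`
(`anyT = false`: `p` top-layer of the child, `q` anywhere in its subtree; `anyT = true`:
the other way round), with the layout lemma L2 as a hypothesis. -/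
theorem rule_lvl_of_between (hbetween : Between h)
    (B : Line h → Line h → Bool) (hfree : HFree B) (i i' : Fin (2 ^ h))
    (hmm : MMclean B i i') (anyT : Bool) (j : Fin h) (s : Bool) (c : ℕ)
    {yu yw yu' yw' : Fin (2 ^ h)}
    (hyu : yu.val / 2 ^ (j.val + 1) = c) (hyw : yw.val / 2 ^ (j.val + 1) = c)
    (hyu' : yu'.val / 2 ^ (j.val + 1) = c) (hyw' : yw'.val / 2 ^ (j.val + 1) = c)
    (hu : GoodRow B i' (core j (kLo s) yu)) (hw : GoodRow B i' (core j (kHi s) yw))
    (hu' : GoodCol B i (core j (kLo s) yu')) (hw' : GoodCol B i (core j (kHi s) yw'))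
    {p q : Line h} (hp : GoodRow B i' p) (hq : GoodCol B i q)
    (hpc : InCls j.val (2 * c + s.toNat) p) (hqc : InCls j.val (2 * c + s.toNat) q)
    (htop : if anyT = true then q.lvl = j.val else p.lvl = j.val)
    (hpq : B p q = false) :
    B (core j (kLo s) yu) (core j (kLo s) yu') = false ∨ B (core j (kLo s) yu) q = false ∨
    B (core j (kLo s) yu) (core j (kHi s) yw') = false ∨ B p (core j (kLo s) yu') = false ∨
    B p (core j (kHi s) yw') = false ∨ B (core j (kHi s) yw) (core j (kLo s) yu') = false ∨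
    B (core j (kHi s) yw) q = false ∨ B (core j (kHi s) yw) (core j (kHi s) yw') = false := by
  by_contra hcon
  simp only [not_or, Bool.not_eq_false] at hcon
  obtain ⟨h00, h01, h02, h10, h12, h20, h21, h22⟩ := hcon
  set g : Grp h := Grp.lvl anyT j s with hg
  have mC : ∀ a : Fin 59, IsMark i (crown a i : Line h) := fun a => Or.inr (Or.inl ⟨a, rfl⟩)
  have mC' : ∀ a : Fin 59, IsMark i' (crown a i' : Line h) := fun a => Or.inr (Or.inl ⟨a, rfl⟩)
  have mT : ∀ θ : Fin 4, IsMark i (thr g θ i : Line h) := fun θ => Or.inr (Or.inr ⟨g, θ, rfl⟩)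
  have mT' : ∀ θ : Fin 4, IsMark i' (thr g θ i' : Line h) := fun θ => Or.inr (Or.inr ⟨g, θ, rfl⟩)
  obtain ⟨hpT, hpL, hpP⟩ := hpc
  obtain ⟨hqT, hqL, hqP⟩ := hqc
  have htopP : anyT = false → p.lvl = j.val := by
    intro ha
    rw [ha] at htop
    simpa using htop
  have htopQ : anyT = true → q.lvl = j.val := by
    intro ha
    rw [ha] at htop
    simpa using htop
  let r : Fin 3 → Line h := ![core j (kLo s) yu, p, core j (kHi s) yw]
  let cc : Fin 3 → Line h := ![core j (kLo s) yu', q, core j (kHi s) yw']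
  have hbr := hbetween (j := j) (s := s) (y := yu) (y' := yw) (l := p)
    (by rw [hyu, hyw]) hpT hpL (by rw [hyu]; exact hpP)
  have hbc := hbetween (j := j) (s := s) (y := yu') (y' := yw') (l := q)
    (by rw [hyu', hyw']) hqT hqL (by rw [hyu']; exact hqP)
  have hrS : StrictMono r := strictMono_vec3 _ _ _ hbr.1 hbr.2
  have hcS : StrictMono cc := strictMono_vec3 _ _ _ hbc.1 hbc.2
  have hr2 : r 2 < crown 0 i := lay_tree_lt_crown (l := core j (kHi s) yw) rfl 0 i
  have hc2 : cc 2 < crown 0 i' := lay_tree_lt_crown (l := core j (kHi s) yw') rfl 0 i'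
  apply hfree (lines66 r g i) (lines66 cc g i')
    (lines66_strictMono_of r g i hrS hr2 (fun hab => lay_crown_lt_crown hab i i)
      (fun a θ => lay_crown_lt_thr a i g θ i) (fun hθ => lay_thr_lt_thr g hθ i i))
    (lines66_strictMono_of cc g i' hcS hc2 (fun hab => lay_crown_lt_crown hab i' i')
      (fun a θ => lay_crown_lt_thr a i' g θ i') (fun hθ => lay_thr_lt_thr g hθ i' i'))
  apply copy_of_frame B i i' hmm g r cc
  · intro k l
    fin_cases k <;> fin_cases l
    · exact h00
    · exact h01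
    · exact h02
    · exact h10
    · exact hpq
    · exact h12
    · exact h20
    · exact h21
    · exact h22
  · intro k a
    fin_cases k
    · show B (core j (kLo s) yu) (crown a i') = false
      rw [hu.2 _ (mC' a)]; exact M_pay_crown hu.1 a i'
    · show B p (crown a i') = false
      rw [hp.2 _ (mC' a)]; exact M_pay_crown hp.1 a i'
    · show B (core j (kHi s) yw) (crown a i') = false
      rw [hw.2 _ (mC' a)]; exact M_pay_crown hw.1 a i'
  · intro k θ
    fin_cases k
    · show B (core j (kLo s) yu) (thr g θ i') = code 0 θ.val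
      rw [hu.2 _ (mT' θ), M_pay_thr hu.1]
      exact lo_thF anyT j s θ yu
    · show B p (thr g θ i') = code 1 θ.val
      rw [hp.2 _ (mT' θ), M_pay_thr hp.1]
      exact mid_thF anyT j s θ hpT hpL htopP
    · show B (core j (kHi s) yw) (thr g θ i') = code 2 θ.val
      rw [hw.2 _ (mT' θ), M_pay_thr hw.1]
      exact hi_thF anyT j s θ yw
  · intro l a
    fin_cases l
    · show B (crown a i) (core j (kLo s) yu') = false
      rw [hu'.2 _ (mC a)]; exact M_crown_pay hu'.1 a i
    · show B (crown a i) q = false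
      rw [hq.2 _ (mC a)]; exact M_crown_pay hq.1 a i
    · show B (crown a i) (core j (kHi s) yw') = false
      rw [hw'.2 _ (mC a)]; exact M_crown_pay hw'.1 a i
  · intro l θ
    fin_cases l
    · show B (thr g θ i) (core j (kLo s) yu') = code 0 θ.val
      rw [hu'.2 _ (mT θ), M_thr_pay hu'.1]
      exact lo_thG anyT j s θ yu'
    · show B (thr g θ i) q = code 1 θ.val
      rw [hq.2 _ (mT θ), M_thr_pay hq.1]
      exact mid_thG anyT j s θ hqT hqL htopQ
    · show B (thr g θ i) (core j (kHi s) yw') = code 2 θ.val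
      rw [hw'.2 _ (mT θ), M_thr_pay hw'.1]
      exact hi_thG anyT j s θ yw'

end Crest.Agent.Helper60.S0066
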