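import Crest.Agent.Helper5.S0066.FarDefs
import Crest.Agent.Helper60.S0066.F0Core
import Crest.Agent.Helper81.S0066.La

/-!
# S0066, package F0: the two rules, Spec-verbatim

* `rule_bot` (in `F0Core`) and `rule_lvl` (here), the statements
  `Crest.Agent.Helper5.S0066.Spec.rule_bot` / `Spec.rule_lvl` verbatim.
  `rule_lvl` = `rule_lvl_of_between` + the layout lemma L2 `between_of` of helper81.
-/

set_option autoImplicit false

namespace Crest.Agent.Helper60.S0066

open Crest.Agent.Helper5.S0066 Crest.Agent.Helper5.S0066.Line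

variable {h : ℕ}

/-- The layout lemma L2 in the form used by `rule_lvl_of_between`. -/
theorem between_holds : Between h := by
  intro j s y y' l hyy hl hlvl hpos
  exact Crest.Agent.Helper81.S0066.between_of hyy hl hlvl hpos

/-- **F0.** Level rule at the class `c` of level `j + 1`, child `2 c + s`
(`anyT = false`: `p` top-layer of the child, `q` anywhere in its subtree; `anyT = true`:
the other way round). -/
theorem rule_lvl (B : Line h → Line h → Bool) (hfree : HFree B) (i i' : Fin (2 ^ h))
    (hmm : MMclean B i i') (anyT : Bool) (j : Fin h) (s : Bool) (c : ℕ)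
    {yu yw yu' yw' : Fin (2 ^ h)}
    (hyu : yu.val / 2 ^ (j.val + 1) = c) (hyw : yw.val / 2 ^ (j.val + 1) = c)
    (hyu' : yu'.val / 2 ^ (j.val + 1) = c) (hyw' : yw'.val / 2 ^ (j.val + 1) = c)
    (hu : GoodRow B i' (core j (kLo s) yu)) (hw : GoodRow B i' (core j (kHi s) yw))
    (hu' : GoodCol B i (core j (kLo s) yu')) (hw' : GoodCol B i (core j (kHi s) yw'))
    {p q : Line h} (hp : GoodRow B i' p) (hq : GoodCol B i q)
    (hpc : InCls j.val (2 * c + s.toNat) p) (hqc : InCls j.val (2 * c + s.toNat) q)
    (htop : if anyT = true then q.lvl = j.val else p.lvl = j.val)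
    (hpq : B p q = false) :
    B (core j (kLo s) yu) (core j (kLo s) yu') = false ∨ B (core j (kLo s) yu) q = false ∨
    B (core j (kLo s) yu) (core j (kHi s) yw') = false ∨ B p (core j (kLo s) yu') = false ∨
    B p (core j (kHi s) yw') = false ∨ B (core j (kHi s) yw) (core j (kLo s) yu') = false ∨
    B (core j (kHi s) yw) q = false ∨ B (core j (kHi s) yw) (core j (kHi s) yw') = false :=
  rule_lvl_of_between between_holds B hfree i i' hmm anyT j s c hyu hyw hyu' hyw' hu hw hu' hw'
    hp hq hpc hqc htop hpq

end Crest.Agent.Helper60.S0066
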